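import Mathlib

open Set Filter

namespace Vale.Agent.P068

/-- the pair `(M, N)` satisfies intersection: some set `J` independent in both has a partition
`J = J₁ ∪ J₂` with `cl_M(J₁) ∪ cl_N(J₂)` equal to the common ground set -/
def SatisfiesIntersection {α : Type*} (M N : Matroid α) : Prop :=
  ∃ J₁ J₂ : Set α, Disjoint J₁ J₂ ∧ M.Indep (J₁ ∪ J₂) ∧ N.Indep (J₁ ∪ J₂) ∧
    M.closure J₁ ∪ N.closure J₂ = M.E

/-- a matroid in which every subset of the ground set is independent or spanning -/
def IsUniform {α : Type*} (M : Matroid α) : Prop := ∀ S ⊆ M.E, M.Indep S ∨ M.Spanning S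

/-- the nonprincipal ultrafilter on `ℕ` -/
noncomputable abbrev U : Ultrafilter ℕ := hyperfilter ℕ

/-- ground set of one node: `Bool` is the side (`false` inner, `true` outer) -/
abbrev G : Type := Bool × ℕ × ℕ

/-- the set of rows of side `c` in which `A` is large -/
def big (A : Set G) (c : Bool) : Set ℕ := {i | {k | (c, i, k) ∈ A} ∈ U}

end Vale.Agent.P068
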