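import Vale.Agent.P068.Defs

open Set Filter

namespace Vale.Agent.P068

/-- properties of the rank `s` on small subsets of `ℕ` -/
structure IsRank {ι : Type} [LinearOrder ι] (s : Set ℕ → ι) : Prop where
  mono : ∀ c d : Set ℕ, c ⊆ d → d ∉ U → s c ≤ s d
  cof : ∀ c p : Set ℕ, c ∉ U → p ∉ U → Disjoint c p → ∀ e : Set ℕ, e ∉ U →
      ∃ d : Set ℕ, c ⊆ d ∧ Disjoint d p ∧ d ∉ U ∧ s e < s d

/-- sets which must be dependent -/
def D0 {ι : Type} [LinearOrder ι] (s : Set ℕ → ι) : Set (Set G) :=
  {A | big A false ∈ U ∧ (big A true ∈ U ∨ s (big A false)ᶜ ≤ s (big A true))}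

/-- sets which must be non-spanning -/
def N0 {ι : Type} [LinearOrder ι] (s : Set ℕ → ι) : Set (Set G) :=
  {A | big A false ∉ U ∧ (big A true ∉ U ∨ s (big A false) ≤ s (big A true)ᶜ)}

/-- nodes: `none` is the centre, `some (r, n)` is the `n`-th node of the ray `r` -/
abbrev Node : Type := Option (Bool × ℕ)

/-- the partner of an element -/
def swap : Node × G → Node × G
  | (none, (r, i, k)) => (some (r, 0), (false, i, k))
  | (some (r, n), (true, i, k)) => (some (r, n + 1), (false, i, k))
  | (some (r, 0), (false, i, k)) => (none, (r, i, k))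
  | (some (r, n + 1), (false, i, k)) => (some (r, n), (true, i, k))

end Vale.Agent.P068
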